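import Vale.Agent.P323.H660.Raw

/-!
# Coding a small extension category by ordinals (package T3)

`code : CodeStmt`.
-/

namespace Vale.Agent.P323.H846

open CategoryTheory Vale.Agent.P323.Z Vale.Agent.P323.H660

section Generic

/-! ### The raw structure coding a category `T` -/

variable {T : Type} [Category.{0} T]

/-- codes for the objects and the morphisms of `T` -/
structure Coding (T : Type) [Category.{0} T] where
  cO : T → U
  cH : ∀ {t t' : T}, (t ⟶ t') → U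
  injO : Function.Injective cO
  injH : ∀ {t t' : T} {f g : t ⟶ t'}, cH f = cH g → f = g

variable (K : Coding T)

/-- the raw structure of a coding -/
def Coding.raw : Raw where
  Ob x := ∃ t, K.cO t = x
  Hom x y f := ∃ (t t' : T) (φ : t ⟶ t'), K.cO t = x ∧ K.cO t' = y ∧ K.cH φ = f
  Id x f := ∃ t, K.cO t = x ∧ K.cH (𝟙 t) = f
  Comp x y z f g h := ∃ (t t' t'' : T) (φ : t ⟶ t') (ψ : t' ⟶ t''), K.cO t = x ∧ K.cO t' = y ∧
    K.cO t'' = z ∧ K.cH φ = f ∧ K.cH ψ = g ∧ K.cH (φ ≫ ψ) = h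

theorem Coding.valid : K.raw.Valid where
  hom_src := by
    rintro x y f ⟨t, t', φ, rfl, rfl, rfl⟩
    exact ⟨t, rfl⟩
  hom_tgt := by
    rintro x y f ⟨t, t', φ, rfl, rfl, rfl⟩
    exact ⟨t', rfl⟩
  id_ex := by
    rintro x ⟨t, rfl⟩
    exact ⟨_, t, rfl, rfl⟩
  id_hom := by
    rintro x f ⟨t, rfl, rfl⟩
    exact ⟨t, t, 𝟙 t, rfl, rfl, rfl⟩
  id_uniq := by
    rintro x f g ⟨t, rfl, rfl⟩ ⟨t₁, h, rfl⟩
    obtain rfl := K.injO h
    rfl
  comp_ex := by
    rintro x y z f g ⟨t, t', φ, rfl, rfl, rfl⟩ ⟨t₁, t'', ψ, h, rfl, rfl⟩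
    obtain rfl := K.injO h
    exact ⟨_, t, _, t'', φ, ψ, rfl, rfl, rfl, rfl, rfl, rfl⟩
  comp_l := by
    rintro x y z f g h ⟨t, t', t'', φ, ψ, rfl, rfl, rfl, rfl, rfl, rfl⟩
    exact ⟨t, t', φ, rfl, rfl, rfl⟩
  comp_r := by
    rintro x y z f g h ⟨t, t', t'', φ, ψ, rfl, rfl, rfl, rfl, rfl, rfl⟩
    exact ⟨t', t'', ψ, rfl, rfl, rfl⟩
  comp_hom := by
    rintro x y z f g h ⟨t, t', t'', φ, ψ, rfl, rfl, rfl, rfl, rfl, rfl⟩
    exact ⟨t, t'', φ ≫ ψ, rfl, rfl, rfl⟩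
  comp_uniq := by
    rintro x y z f g h h' ⟨t, t', t'', φ, ψ, rfl, rfl, rfl, rfl, rfl, rfl⟩
      ⟨s, s', s'', φ', ψ', h1, h2, h3, h4, h5, rfl⟩
    obtain rfl := K.injO h1
    obtain rfl := K.injO h2
    obtain rfl := K.injO h3
    obtain rfl := K.injH h4
    obtain rfl := K.injH h5
    rfl
  id_comp := by
    rintro x y i f ⟨t, rfl, rfl⟩ ⟨s, s', φ, h1, rfl, rfl⟩
    obtain rfl := K.injO h1
    exact ⟨_, _, _, 𝟙 _, φ, rfl, rfl, rfl, rfl, rfl, by rw [Category.id_comp]⟩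
  comp_id := by
    rintro x y i f ⟨t, rfl, rfl⟩ ⟨s, s', φ, rfl, h1, rfl⟩
    obtain rfl := K.injO h1
    exact ⟨_, _, _, φ, 𝟙 _, rfl, rfl, rfl, rfl, rfl, by rw [Category.comp_id]⟩
  assoc := by
    rintro w x y z f g h fg gh k ⟨t₀, t₁, t₂, φ, ψ, rfl, rfl, rfl, rfl, rfl, rfl⟩
      ⟨s₀, s₂, s₃, χ, ρ, h1, h2, rfl, h4, rfl, rfl⟩ ⟨r₁, r₂, r₃, σ, τ, k1, k2, k3, k4, k5, rfl⟩
    obtain rfl := K.injO h1
    obtain rfl := K.injO h2
    obtain rfl := K.injH h4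
    obtain rfl := K.injO k1
    obtain rfl := K.injO k2
    obtain rfl := K.injO k3
    obtain rfl := K.injH k4
    obtain rfl := K.injH k5
    exact ⟨_, _, _, φ, σ ≫ τ, rfl, rfl, rfl, rfl, rfl, by rw [Category.assoc]⟩

theorem Coding.bdd : K.raw.Bdd := by
  obtain ⟨b₁, h₁⟩ : BddAbove (Set.range K.cO) := Ordinal.bddAbove_of_small
  obtain ⟨b₂, h₂⟩ : BddAbove (Set.range fun a : Σ t t' : T, (t ⟶ t') => K.cH a.2.2) :=
    Ordinal.bddAbove_of_small
  refine ⟨Order.succ (max b₁ b₂), ?_, ?_⟩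
  · rintro x ⟨t, rfl⟩
    exact Order.lt_succ_of_le ((h₁ ⟨t, rfl⟩).trans (le_max_left _ _))
  · rintro x y f ⟨t, t', φ, rfl, rfl, rfl⟩
    exact Order.lt_succ_of_le ((h₂ ⟨⟨t, t', φ⟩, rfl⟩).trans (le_max_right _ _))

/-- the coding functor -/
noncomputable def Coding.F : haveI := K.valid; T ⥤ RCat K.raw :=
  haveI := K.valid
  { obj := fun t => ⟨K.cO t, t, rfl⟩
    map := fun {t t'} φ => ⟨K.cH φ, t, t', φ, rfl, rfl, rfl⟩
    map_id := fun t => eq_id_of_code (R := K.raw) ⟨t, rfl, rfl⟩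
    map_comp := fun {t t' t''} φ ψ => (comp_eq_of_code (R := K.raw)
      (show K.raw.Comp (K.cO t) (K.cO t') (K.cO t'') (K.cH φ) (K.cH ψ) (K.cH (φ ≫ ψ)) from
        ⟨t, t', t'', φ, ψ, rfl, rfl, rfl, rfl, rfl, rfl⟩)).symm }

end Generic

/-- an injection of a type into the small ordinals -/
theorem exists_inj (X : Type) : ∃ κ : X → U, Function.Injective κ :=
  ⟨Ordinal.typein WellOrderingRel, Ordinal.typein_injective _⟩

section Main

variable {R : Raw} [R.Valid] {β : U}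
  {S T : Type} [Category.{0} S] [Category.{0} T] (E : S ⥤ RCat R) (Φ : S ⥤ T)

/-- the arrows of a category -/
abbrev Arr (T : Type) [Category.{0} T] : Type := Σ t t' : T, (t ⟶ t')

/-- the old arrows -/
def oldA (g : Arr S) : Arr T := ⟨Φ.obj g.1, Φ.obj g.2.1, Φ.map g.2.2⟩

open Classical in
/-- object codes -/
noncomputable def cO (β : U) (κ : T → U) (t : T) : U :=
  if h : ∃ s, Φ.obj s = t then (E.obj h.choose).code else β + κ t

open Classical in
/-- arrow codes -/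
noncomputable def cA (β : U) (κ : Arr T → U) (a : Arr T) : U :=
  if h : ∃ g : Arr S, oldA Φ g = a then RHom.code (E.map h.choose.2.2) else β + κ a

variable {E Φ}

theorem oldA_inj (hinj : Function.Injective Φ.obj)
    (hf : ∀ (x y : S) (f g : x ⟶ y), Φ.map f = Φ.map g → f = g) :
    Function.Injective (oldA (T := T) Φ) := by
  rintro ⟨s, s', g⟩ ⟨r, r', g'⟩ h
  simp only [oldA, Sigma.mk.injEq] at h
  obtain ⟨h1, h2⟩ := h
  obtain rfl := hinj h1
  have h2 := eq_of_heq h2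
  simp only [Sigma.mk.injEq] at h2
  obtain ⟨h3, h4⟩ := h2
  obtain rfl := hinj h3
  obtain rfl := hf _ _ _ _ (eq_of_heq h4)
  rfl

theorem cO_old (hinj : Function.Injective Φ.obj) (β : U) (κ : T → U) (s : S) :
    cO E Φ β κ (Φ.obj s) = (E.obj s).code := by
  have h : ∃ s', Φ.obj s' = Φ.obj s := ⟨s, rfl⟩
  rw [cO, dif_pos h, hinj h.choose_spec]

theorem cO_new (β : U) (κ : T → U) {t : T} (h : ¬ ∃ s, Φ.obj s = t) :
    cO E Φ β κ t = β + κ t := dif_neg h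

theorem cA_old (hinj : Function.Injective Φ.obj)
    (hf : ∀ (x y : S) (f g : x ⟶ y), Φ.map f = Φ.map g → f = g) (β : U) (κ : Arr T → U)
    {s s' : S} (g : s ⟶ s') :
    cA E Φ β κ ⟨Φ.obj s, Φ.obj s', Φ.map g⟩ = RHom.code (E.map g) := by
  have h : ∃ g' : Arr S, oldA Φ g' = ⟨Φ.obj s, Φ.obj s', Φ.map g⟩ := ⟨⟨s, s', g⟩, rfl⟩
  rw [cA, dif_pos h]
  have : h.choose = (⟨s, s', g⟩ : Arr S) := oldA_inj hinj hf h.choose_spec
  rw [this]

theorem cA_new (β : U) (κ : Arr T → U) {a : Arr T} (h : ¬ ∃ g : Arr S, oldA Φ g = a) :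
    cA E Φ β κ a = β + κ a := dif_neg h

theorem cO_inj (hO : Function.Bijective E.obj) (hinj : Function.Injective Φ.obj)
    (hβ : ∀ x, R.Ob x → x < β) {κ : T → U} (hκ : Function.Injective κ) :
    Function.Injective (cO E Φ β κ) := by
  intro t t' h
  by_cases ht : ∃ s, Φ.obj s = t
  · obtain ⟨s, rfl⟩ := ht
    rw [cO_old hinj] at h
    by_cases ht' : ∃ s, Φ.obj s = t'
    · obtain ⟨s', rfl⟩ := ht'
      rw [cO_old hinj] at h
      have : E.obj s = E.obj s' := RCat.ext h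
      rw [hO.1 this]
    · rw [cO_new β κ ht'] at h
      have h1 := hβ _ (E.obj s).ob
      rw [h] at h1
      exact absurd h1 (not_lt.2 le_self_add)
  · rw [cO_new β κ ht] at h
    by_cases ht' : ∃ s, Φ.obj s = t'
    · obtain ⟨s', rfl⟩ := ht'
      rw [cO_old hinj] at h
      have h1 := hβ _ (E.obj s').ob
      rw [← h] at h1
      exact absurd h1 (not_lt.2 le_self_add)
    · rw [cO_new β κ ht'] at h
      exact hκ (add_left_cancel h)

theorem cA_inj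
    (hE : ∀ x y : S, Function.Bijective (fun f : x ⟶ y => E.map f))
    (hinj : Function.Injective Φ.obj)
    (hf : ∀ (x y : S) (f g : x ⟶ y), Φ.map f = Φ.map g → f = g)
    (hβ : ∀ x y f, R.Hom x y f → f < β) {κ : Arr T → U} (hκ : Function.Injective κ)
    {t t' : T} {f g : t ⟶ t'} (h : cA E Φ β κ ⟨t, t', f⟩ = cA E Φ β κ ⟨t, t', g⟩) : f = g := by
  have key : (⟨t, t', f⟩ : Arr T) = ⟨t, t', g⟩ := by
    by_cases h1 : ∃ u : Arr S, oldA Φ u = ⟨t, t', f⟩
    · obtain ⟨⟨s, s', u⟩, hu⟩ := h1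
      by_cases h2 : ∃ u : Arr S, oldA Φ u = ⟨t, t', g⟩
      · obtain ⟨⟨r, r', v⟩, hv⟩ := h2
        simp only [oldA, Sigma.mk.injEq] at hu hv
        obtain ⟨rfl, hu⟩ := hu
        have hu := eq_of_heq hu
        simp only [Sigma.mk.injEq] at hu
        obtain ⟨rfl, hu⟩ := hu
        have hu := eq_of_heq hu
        subst hu
        obtain ⟨e1, hv⟩ := hv
        obtain rfl := hinj e1
        have hv := eq_of_heq hv
        simp only [Sigma.mk.injEq] at hv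
        obtain ⟨e2, hv⟩ := hv
        obtain rfl := hinj e2
        have hv := eq_of_heq hv
        subst hv
        rw [cA_old hinj hf, cA_old hinj hf] at h
        have := (hE _ _).1 (hom_ext h)
        rw [this]
      · rw [cA_new β κ h2, ← hu] at h
        change cA E Φ β κ ⟨Φ.obj s, Φ.obj s', Φ.map u⟩ = _ at h
        rw [cA_old hinj hf] at h
        have h3 := hβ _ _ _ (E.map u).hom
        rw [h] at h3
        exact absurd h3 (not_lt.2 le_self_add)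
    · rw [cA_new β κ h1] at h
      by_cases h2 : ∃ u : Arr S, oldA Φ u = ⟨t, t', g⟩
      · obtain ⟨⟨r, r', v⟩, hv⟩ := h2
        rw [← hv] at h
        change _ = cA E Φ β κ ⟨Φ.obj r, Φ.obj r', Φ.map v⟩ at h
        rw [cA_old hinj hf] at h
        have h3 := hβ _ _ _ (E.map v).hom
        rw [← h] at h3
        exact absurd h3 (not_lt.2 le_self_add)
      · rw [cA_new β κ h2] at h
        exact hκ (add_left_cancel h)
  simpa using key

/-- T3: the coding of an extension. -/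
theorem code : CodeStmt := by
  intro R _ hbd S T _ _ E Φ hO hE hinj hf
  obtain ⟨β, hβ1, hβ2⟩ := hbd
  obtain ⟨κ, hκ⟩ := exists_inj T
  obtain ⟨κ', hκ'⟩ := exists_inj (Arr T)
  let K : Coding T :=
    { cO := cO E Φ β κ
      cH := fun {t t'} f => cA E Φ β κ' ⟨t, t', f⟩
      injO := cO_inj hO hinj hβ1 hκ
      injH := fun h => cA_inj hE hinj hf hβ2 hκ' h }
  have hV := K.valid
  have e1 : ∀ s : S, K.cO (Φ.obj s) = (E.obj s).code := fun s => cO_old hinj β κ s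
  have e2 : ∀ {s s' : S} (g : s ⟶ s'), K.cH (Φ.map g) = RHom.code (E.map g) :=
    fun g => cA_old hinj hf β κ' g
  have hobj : ∀ {x : U}, R.Ob x → ∃ s, (E.obj s).code = x := by
    intro x hx
    obtain ⟨s, hs⟩ := hO.2 ⟨x, hx⟩
    exact ⟨s, by rw [hs]⟩
  have hhom : ∀ {s s' : S} {f : U}, R.Hom (E.obj s).code (E.obj s').code f →
      ∃ g : s ⟶ s', RHom.code (E.map g) = f := by
    intro s s' f h
    obtain ⟨g, hg⟩ := (hE s s').2 (⟨f, h⟩ : RHom _ _)
    exact ⟨g, congrArg RHom.code hg⟩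
  refine ⟨K.raw, K.valid, K.F, ⟨?_, ?_, ?_, ?_⟩, K.bdd, ⟨?_, ?_⟩, ?_, e1, fun _ _ f => e2 f⟩
  · intro x hx
    obtain ⟨s, rfl⟩ := hobj hx
    exact ⟨Φ.obj s, e1 s⟩
  · intro x y f hf'
    obtain ⟨s, rfl⟩ := hobj (Raw.Valid.hom_src hf')
    obtain ⟨s', rfl⟩ := hobj (Raw.Valid.hom_tgt hf')
    obtain ⟨g, rfl⟩ := hhom hf'
    exact ⟨_, _, Φ.map g, e1 s, e1 s', e2 g⟩
  · intro x f hf'
    obtain ⟨s, rfl⟩ := hobj (Raw.Valid.hom_src (Raw.Valid.id_hom hf'))
    refine ⟨Φ.obj s, e1 s, ?_⟩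
    rw [← Φ.map_id, e2, E.map_id]
    exact Raw.Valid.id_uniq (id_code (E.obj s)) hf'
  · intro x y z f g h hc
    have h1 := Raw.Valid.comp_l hc
    have h2 := Raw.Valid.comp_r hc
    obtain ⟨s, rfl⟩ := hobj (Raw.Valid.hom_src h1)
    obtain ⟨s', rfl⟩ := hobj (Raw.Valid.hom_tgt h1)
    obtain ⟨s'', rfl⟩ := hobj (Raw.Valid.hom_tgt h2)
    obtain ⟨u, rfl⟩ := hhom h1
    obtain ⟨v, rfl⟩ := hhom h2
    refine ⟨_, _, _, Φ.map u, Φ.map v, e1 s, e1 s', e1 s'', e2 u, e2 v, ?_⟩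
    rw [← Φ.map_comp, e2, E.map_comp]
    exact Raw.Valid.comp_uniq (comp_code (E.map u) (E.map v)) hc
  · intro t t' h
    exact K.injO (congrArg RCat.code h)
  · rintro ⟨x, t, rfl⟩
    exact ⟨t, rfl⟩
  · intro t t'
    constructor
    · intro f g h
      exact K.injH (congrArg RHom.code h)
    · rintro ⟨c, s, s', φ, h1, h2, h3⟩
      obtain rfl := K.injO h1
      obtain rfl := K.injO h2
      subst h3
      exact ⟨φ, rfl⟩

end Main

end Vale.Agent.P323.H846
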