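import Vale.Agent.P323.H846.Code

/-!
# The next raw structure

For `NextData R R'` (a typed step realised by raw structures `R ≤ R'`):
`NextData.nice` and `NextData.emb`; `exists_next` puts `ShrinkStmt`, `StepStmt` and `code`
together.
-/

namespace Vale.Agent.P323.H846

open CategoryTheory Vale.Agent.P323.Z Vale.Agent.P323.H660

universe u₁ v₁ u₂ v₂

section Iso

/-! ### Transport along an isomorphism of categories -/

variable {A : Type u₁} [Category.{v₁} A] {B : Type u₂} [Category.{v₂} B] (F : A ⥤ B)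

theorem isPB_map (hO : Function.Surjective F.obj)
    (hM : ∀ x y : A, Function.Bijective (fun f : x ⟶ y => F.map f))
    {z x y b : A} {p : z ⟶ x} {q : z ⟶ y} {f : x ⟶ b} {g : y ⟶ b} (h : IsPB p q f g) :
    IsPB (F.map p) (F.map q) (F.map f) (F.map g) := by
  refine ⟨by rw [← F.map_comp, h.1, F.map_comp], ?_⟩
  intro e u v huv
  obtain ⟨e, rfl⟩ := hO e
  obtain ⟨u, rfl⟩ := (hM _ _).2 u
  obtain ⟨v, rfl⟩ := (hM _ _).2 v
  have huv : F.map (u ≫ f) = F.map (v ≫ g) := by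
    rw [F.map_comp, F.map_comp]; exact huv
  obtain ⟨w, rfl, rfl⟩ := h.2 u v ((hM _ _).1 huv)
  exact ⟨F.map w, (F.map_comp _ _).symm, (F.map_comp _ _).symm⟩

theorem isPB_of_map (hM : ∀ x y : A, Function.Bijective (fun f : x ⟶ y => F.map f))
    {z x y b : A} {p : z ⟶ x} {q : z ⟶ y} {f : x ⟶ b} {g : y ⟶ b}
    (h : IsPB (F.map p) (F.map q) (F.map f) (F.map g)) : IsPB p q f g := by
  refine ⟨(hM _ _).1 (by simpa only [F.map_comp] using h.1), ?_⟩
  intro e u v huv
  obtain ⟨w, hw₁, hw₂⟩ := h.2 (F.map u) (F.map v) (by rw [← F.map_comp, huv, F.map_comp])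
  obtain ⟨w, rfl⟩ := (hM _ _).2 w
  refine ⟨w, (hM _ _).1 ?_, (hM _ _).1 ?_⟩
  · exact (F.map_comp _ _).trans hw₁
  · exact (F.map_comp _ _).trans hw₂

end Iso

theorem isStage_map {A : Type} [Category.{0} A] {B : Type 1} [Category.{1} B] (F : A ⥤ B)
    (hO : Function.Surjective F.obj)
    (hM : ∀ x y : A, Function.Bijective (fun f : x ⟶ y => F.map f))
    {a : ℕ → A} {ι : ∀ n, a n ⟶ a (n + 1)} (h : IsStage A a ι) :
    IsStage B (fun n => F.obj (a n)) (fun n => F.map (ι n)) where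
  mono := by
    intro x y f
    obtain ⟨x, rfl⟩ := hO x
    obtain ⟨y, rfl⟩ := hO y
    obtain ⟨f, rfl⟩ := (hM _ _).2 f
    refine ⟨fun {z} u v huv => ?_⟩
    obtain ⟨z, rfl⟩ := hO z
    obtain ⟨u, rfl⟩ := (hM _ _).2 u
    obtain ⟨v, rfl⟩ := (hM _ _).2 v
    have huv : F.map (u ≫ f) = F.map (v ≫ f) := by
      rw [F.map_comp, F.map_comp]; exact huv
    have := h.mono f
    have h1 : u = v := (cancel_mono f).1 ((hM _ _).1 huv)
    rw [h1]
  pb := by
    intro x y b f g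
    obtain ⟨x, rfl⟩ := hO x
    obtain ⟨y, rfl⟩ := hO y
    obtain ⟨b, rfl⟩ := hO b
    obtain ⟨f, rfl⟩ := (hM _ _).2 f
    obtain ⟨g, rfl⟩ := (hM _ _).2 g
    obtain ⟨z, p, q, hpq⟩ := h.pb f g
    exact ⟨F.obj z, F.map p, F.map q, isPB_map F hO hM hpq⟩
  ι_not := by
    rintro n ⟨w, hw⟩
    obtain ⟨w, rfl⟩ := (hM _ _).2 w
    refine h.ι_not n ⟨w, (hM _ _).1 ?_⟩
    exact ((F.map_comp _ _).trans hw).trans (F.map_id _).symm
  from_a0 := by
    intro x
    obtain ⟨x, rfl⟩ := hO x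
    exact (h.from_a0 x).map fun f => F.map f

theorem heq_of_code {R : Raw} [R.Valid] {X X' Y Y' : RCat R} (hX : X = X') (hY : Y = Y')
    {f : X ⟶ Y} {f' : X' ⟶ Y'} (h : RHom.code f = RHom.code f') : HEq f f' := by
  subst hX; subst hY
  exact heq_of_eq (hom_ext h)

theorem isStage_congr {B : Type 1} [Category.{1} B] {a a' : ℕ → B}
    {ι : ∀ n, a n ⟶ a (n + 1)} {ι' : ∀ n, a' n ⟶ a' (n + 1)} (ha : a = a') (hι : HEq ι ι')
    (h : IsStage B a ι) : IsStage B a' ι' := by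
  subst ha
  obtain rfl := eq_of_heq hι
  exact h

/-- the stage property in the raw form -/
theorem isStage_raw {R : Raw} [R.Valid] (hb : base.Le R) {A : Type} [Category.{0} A]
    (F : A ⥤ RCat R) (hO : Function.Surjective F.obj)
    (hM : ∀ x y : A, Function.Bijective (fun f : x ⟶ y => F.map f))
    {a : ℕ → A} {ι : ∀ n, a n ⟶ a (n + 1)} (h : IsStage A a ι)
    (ha : ∀ n, (F.obj (a n)).code = (n : Ordinal.{0})) (hι : ∀ n, RHom.code (F.map (ι n)) = 0) :
    IsStage (RCat R) (ra hb) (rι hb) := by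
  have e : ∀ n, F.obj (a n) = ra hb n := fun n => RCat.ext (ha n)
  refine isStage_congr (funext e) ?_ (isStage_map F hO hM h)
  refine Function.hfunext rfl fun n n' hn => ?_
  obtain rfl := eq_of_heq hn
  exact heq_of_code (e n) (e (n + 1)) (hι n)

attribute [local instance] NextData.cS

section

variable {R R' : Raw} [R.Valid] [R'.Valid]

theorem nextData_stage (N : NextData R R') (hb : base.Le R) :
    IsStage (RCat R') (ra (hb.trans N.le)) (rι (hb.trans N.le)) := by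
  refine isStage_raw _ N.F N.F_obj.2 N.F_map N.st.stage ?_ ?_
  · intro n
    rw [N.comm_obj, N.E_a]
  · intro n
    rw [N.comm_map, N.E_ι]

theorem nextData_nice (N : NextData R R') (hb : base.Le R) (hB : R'.Bdd) : Nice R' where
  valid := inferInstance
  base_le := hb.trans N.le
  bdd := hB
  stage := nextData_stage N hb

/-- the square of functors commutes -/
theorem nextData_comm (N : NextData R R') : N.E ⋙ incl N.le = N.st.Φ ⋙ N.F := by
  have e : ∀ s : N.S, (incl N.le).obj (N.E.obj s) = N.F.obj (N.st.Φ.obj s) :=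
    fun s => RCat.ext (N.comm_obj s).symm
  exact Functor.hext e fun s t f => heq_of_code (e s) (e t) (N.comm_map f).symm

theorem nextData_emb (N : NextData R R') : Raw.Emb R R' where
  le := N.le
  pb := by
    intro Z X Y B p q f g h
    obtain ⟨Z, rfl⟩ := N.E_obj.2 Z
    obtain ⟨X, rfl⟩ := N.E_obj.2 X
    obtain ⟨Y, rfl⟩ := N.E_obj.2 Y
    obtain ⟨B, rfl⟩ := N.E_obj.2 B
    obtain ⟨p, rfl⟩ := (N.E_map _ _).2 p
    obtain ⟨q, rfl⟩ := (N.E_map _ _).2 q
    obtain ⟨f, rfl⟩ := (N.E_map _ _).2 f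
    obtain ⟨g, rfl⟩ := (N.E_map _ _).2 g
    have h1 := isPB_map N.F N.F_obj.2 N.F_map (N.st.pb (isPB_of_map N.E N.E_map h))
    have key : ∀ G : N.S ⥤ RCat R', N.st.Φ ⋙ N.F = G →
        IsPB (G.map p) (G.map q) (G.map f) (G.map g) := by
      rintro _ rfl
      exact h1
    exact key _ (nextData_comm N).symm
  div := by
    intro X Y Z f g hg hfg
    have hobj : ∀ {X : RCat R'}, R.Ob X.code → ∃ s, N.F.obj (N.st.Φ.obj s) = X := by
      intro X hX
      obtain ⟨s, hs⟩ := N.E_obj.2 ⟨X.code, hX⟩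
      exact ⟨s, RCat.ext ((N.comm_obj s).trans (congrArg RCat.code hs))⟩
    have hmap : ∀ {s t : N.S} {f : N.F.obj (N.st.Φ.obj s) ⟶ N.F.obj (N.st.Φ.obj t)},
        R.Hom (N.F.obj (N.st.Φ.obj s)).code (N.F.obj (N.st.Φ.obj t)).code f.code →
        ∃ g : s ⟶ t, N.F.map (N.st.Φ.map g) = f := by
      intro s t f hf
      rw [N.comm_obj, N.comm_obj] at hf
      obtain ⟨g, hg⟩ := (N.E_map s t).2 (⟨f.code, hf⟩ : RHom _ _)
      exact ⟨g, hom_ext ((N.comm_map g).trans (congrArg RHom.code hg))⟩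
    obtain ⟨X, rfl⟩ := hobj (Raw.Valid.hom_src hfg)
    obtain ⟨Y, rfl⟩ := hobj (Raw.Valid.hom_src hg)
    obtain ⟨Z, rfl⟩ := hobj (Raw.Valid.hom_tgt hg)
    obtain ⟨g, rfl⟩ := hmap hg
    obtain ⟨k, hk⟩ := hmap hfg
    obtain ⟨f, rfl⟩ := (N.F_map _ _).2 f
    have h1 : f ≫ N.st.Φ.map g = N.st.Φ.map k := by
      refine (N.F_map _ _).1 ?_
      exact (N.F.map_comp _ _).trans hk.symm
    obtain ⟨f, rfl⟩ := N.st.div _ _ _ h1
    have h2 := (N.E.map f).hom
    rw [← N.comm_map f, ← N.comm_obj, ← N.comm_obj] at h2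
    exact h2

end

/-- The successor of a nice raw structure. -/
theorem exists_next (hS : ShrinkStmt) (hT : StepStmt) (R : Raw) [R.Valid] (hN : Nice R) :
    ∃ (R' : Raw) (_ : R'.Valid), Nice R' ∧ Raw.Emb R R' ∧ Nonempty (NextData R R') := by
  obtain ⟨S, _, a, ι, E, hst, hO, hM, ha, hι⟩ := hS R hN.base_le hN.bdd hN.stage
  obtain ⟨st⟩ := hT S a ι hst
  obtain ⟨R', hV, F, hle, hB, hFO, hFM, h1, h2⟩ :=
    code R hN.bdd S st.T E st.Φ hO hM st.inj (fun _ _ _ _ h => st.faithful h)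
  let N : NextData R R' :=
    { le := hle, S := S, a := a, ι := ι, st := st, E := E, F := F, E_obj := hO, E_map := hM
      F_obj := hFO, F_map := hFM, comm_obj := h1, comm_map := fun f => h2 _ _ f
      E_a := ha, E_ι := hι }
  exact ⟨R', hV, nextData_nice N hN.base_le hB, nextData_emb N, ⟨N⟩⟩

end Vale.Agent.P323.H846
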